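/-
Helper31 — project S0175, package TS-2: the symmetrised triangle plan is a coupling of the
two-shell marginal with cost exactly `tsVal` (statement verbatim from
`Crest.Agent.Helper32.Spec.ts_plan`).

Plan: `Γ (b,t) = (ΦA (b,t), ΦB (b,t), ΦB (b, t + g b))`, `π₀ = Σ` over the three cyclic shifts of
`Γ` of `Λ.map (shift ∘ Γ)`.
-/
import Mathlib
import Crest.Agent.Helper32.TwoShellDefs
import Crest.Agent.Helper62.TwoShell.TSB

set_option autoImplicit false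
set_option linter.unusedSectionVars false
open MeasureTheory Set
open scoped ENNReal
open Crest.AnalysisR.OT
open Crest.Agent.Helper32

namespace Crest.Agent.Helper31

variable {E Y : Type*} [MeasurableSpace E] [StandardBorelSpace E] [MeasurableSpace Y]
  [StandardBorelSpace Y] (ν : Measure Y) [IsFiniteMeasure ν] (ΦA ΦB : Y × ℝ → E) (g : Y → ℝ)
  (c : E × E × E → ℝ≥0∞) (u : E → ℝ)

/-- the second base vertex of the triangle `(b, t)` -/
def tsΦB' (ΦB : Y × ℝ → E) (g : Y → ℝ) (p : Y × ℝ) : E := ΦB (p.1, p.2 + g p.1)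

theorem measurable_tsΦB' (hB : Measurable ΦB) (hg : Measurable g) : Measurable (tsΦB' ΦB g) :=
  hB.comp (measurable_fst.prodMk (measurable_snd.add (hg.comp measurable_fst)))

theorem isFiniteMeasure_tsΛ : IsFiniteMeasure (tsΛ ν) := by
  unfold tsΛ; infer_instance

/-- The rotated base-vertex map has the same image measure as `ΦB`. -/
theorem ts_map_rot (hB : Measurable ΦB) (hper : ∀ b t, ΦB (b, t + 1) = ΦB (b, t))
    (hg : Measurable g) : (tsΛ ν).map (tsΦB' ΦB g) = (tsΛ ν).map ΦB := by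
  ext S hS
  rw [← lintegral_indicator_one hS, ← lintegral_indicator_one hS,
    lintegral_map (measurable_one.indicator hS) (measurable_tsΦB' ΦB g hB hg),
    lintegral_map (measurable_one.indicator hS) hB]
  exact Crest.Agent.Helper62.ts_rot ν (fun p => S.indicator 1 (ΦB p))
    ((measurable_one.indicator hS).comp hB) (fun b t => by simp only [hper]) g hg

/-- the contact triangle map and its two cyclic shifts -/
def tsΓ₁ (ΦA ΦB : Y × ℝ → E) (g : Y → ℝ) (p : Y × ℝ) : E × E × E :=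
  (ΦA p, ΦB p, tsΦB' ΦB g p)

/-- second cyclic shift of the triangle map -/
def tsΓ₂ (ΦA ΦB : Y × ℝ → E) (g : Y → ℝ) (p : Y × ℝ) : E × E × E :=
  (ΦB p, tsΦB' ΦB g p, ΦA p)

/-- third cyclic shift of the triangle map -/
def tsΓ₃ (ΦA ΦB : Y × ℝ → E) (g : Y → ℝ) (p : Y × ℝ) : E × E × E :=
  (tsΦB' ΦB g p, ΦA p, ΦB p)

/-- the symmetrised triangle plan -/
noncomputable def tsπ₀ (ν : Measure Y) (ΦA ΦB : Y × ℝ → E) (g : Y → ℝ) : Measure (E × E × E) :=
  (tsΛ ν).map (tsΓ₁ ΦA ΦB g) + (tsΛ ν).map (tsΓ₂ ΦA ΦB g) + (tsΛ ν).map (tsΓ₃ ΦA ΦB g)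

theorem measurable_tsΓ₁ (hA : Measurable ΦA) (hB : Measurable ΦB) (hg : Measurable g) :
    Measurable (tsΓ₁ ΦA ΦB g) :=
  hA.prodMk (hB.prodMk (measurable_tsΦB' ΦB g hB hg))

theorem measurable_tsΓ₂ (hA : Measurable ΦA) (hB : Measurable ΦB) (hg : Measurable g) :
    Measurable (tsΓ₂ ΦA ΦB g) :=
  hB.prodMk ((measurable_tsΦB' ΦB g hB hg).prodMk hA)

theorem measurable_tsΓ₃ (hA : Measurable ΦA) (hB : Measurable ΦB) (hg : Measurable g) :
    Measurable (tsΓ₃ ΦA ΦB g) :=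
  (measurable_tsΦB' ΦB g hB hg).prodMk (hA.prodMk hB)

/-- image of the plan under a measurable map -/
theorem tsπ₀_map {F : Type*} [MeasurableSpace F] (hA : Measurable ΦA) (hB : Measurable ΦB)
    (hg : Measurable g) (f : E × E × E → F) (hf : Measurable f) :
    (tsπ₀ ν ΦA ΦB g).map f = (tsΛ ν).map (f ∘ tsΓ₁ ΦA ΦB g) + (tsΛ ν).map (f ∘ tsΓ₂ ΦA ΦB g)
      + (tsΛ ν).map (f ∘ tsΓ₃ ΦA ΦB g) := by
  unfold tsπ₀
  rw [Measure.map_add _ _ hf, Measure.map_add _ _ hf,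
    Measure.map_map hf (measurable_tsΓ₁ ΦA ΦB g hA hB hg),
    Measure.map_map hf (measurable_tsΓ₂ ΦA ΦB g hA hB hg),
    Measure.map_map hf (measurable_tsΓ₃ ΦA ΦB g hA hB hg)]

/-- The symmetrised triangle plan is a coupling of the two-shell marginal. -/
theorem tsπ₀_isCoupling (h : TwoShellHyp ν ΦA ΦB g c u) :
    IsCoupling₃ (tsμ ν ΦA ΦB) (tsπ₀ ν ΦA ΦB g) := by
  have hrot := ts_map_rot ν ΦB g h.measB h.perB h.measg
  have e1 : (fun p : E × E × E => p.1) ∘ tsΓ₁ ΦA ΦB g = ΦA := rfl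
  have e2 : (fun p : E × E × E => p.1) ∘ tsΓ₂ ΦA ΦB g = ΦB := rfl
  have e3 : (fun p : E × E × E => p.1) ∘ tsΓ₃ ΦA ΦB g = tsΦB' ΦB g := rfl
  have e4 : (fun p : E × E × E => p.2.1) ∘ tsΓ₁ ΦA ΦB g = ΦB := rfl
  have e5 : (fun p : E × E × E => p.2.1) ∘ tsΓ₂ ΦA ΦB g = tsΦB' ΦB g := rfl
  have e6 : (fun p : E × E × E => p.2.1) ∘ tsΓ₃ ΦA ΦB g = ΦA := rfl
  have e7 : (fun p : E × E × E => p.2.2) ∘ tsΓ₁ ΦA ΦB g = tsΦB' ΦB g := rfl
  have e8 : (fun p : E × E × E => p.2.2) ∘ tsΓ₂ ΦA ΦB g = ΦA := rfl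
  have e9 : (fun p : E × E × E => p.2.2) ∘ tsΓ₃ ΦA ΦB g = ΦB := rfl
  refine ⟨?_, ?_, ?_⟩
  · rw [tsπ₀_map ν ΦA ΦB g h.measA h.measB h.measg (fun p : E × E × E => p.1) measurable_fst,
      e1, e2, e3, hrot]
    unfold tsμ
    rw [two_smul, add_assoc]
  · rw [tsπ₀_map ν ΦA ΦB g h.measA h.measB h.measg (fun p : E × E × E => p.2.1)
      (measurable_fst.comp measurable_snd), e4, e5, e6, hrot]
    unfold tsμ
    rw [two_smul, add_comm]
  · rw [tsπ₀_map ν ΦA ΦB g h.measA h.measB h.measg (fun p : E × E × E => p.2.2)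
      (measurable_snd.comp measurable_snd), e7, e8, e9, hrot]
    unfold tsμ
    rw [two_smul, add_assoc, add_comm _ ((tsΛ ν).map ΦB), ← add_assoc, add_comm]

/-- The cost of the symmetrised triangle plan. -/
theorem tsπ₀_cost (h : TwoShellHyp ν ΦA ΦB g c u) :
    ∫⁻ p, c p ∂(tsπ₀ ν ΦA ΦB g) = tsVal ν ΦA ΦB u := by
  have hfin := isFiniteMeasure_tsΛ ν
  have hrot := ts_map_rot ν ΦB g h.measB h.perB h.measg
  have mB' := measurable_tsΦB' ΦB g h.measB h.measg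
  obtain ⟨M, hM⟩ := h.bddu
  -- integrability of the three pieces
  have iA : Integrable (fun p => u (ΦA p)) (tsΛ ν) :=
    Integrable.of_bound (h.measu.comp h.measA).aestronglyMeasurable M
      (Filter.Eventually.of_forall fun p => by rw [Real.norm_eq_abs]; exact (hM p).1)
  have iB : Integrable (fun p => u (ΦB p)) (tsΛ ν) :=
    Integrable.of_bound (h.measu.comp h.measB).aestronglyMeasurable M
      (Filter.Eventually.of_forall fun p => by rw [Real.norm_eq_abs]; exact (hM p).2)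
  have iB' : Integrable (fun p => u (tsΦB' ΦB g p)) (tsΛ ν) :=
    Integrable.of_bound (h.measu.comp mB').aestronglyMeasurable M
      (Filter.Eventually.of_forall fun p => by rw [Real.norm_eq_abs]; exact (hM _).2)
  -- the rotated piece has the same integral
  have eB' : ∫ p, u (tsΦB' ΦB g p) ∂(tsΛ ν) = ∫ p, u (ΦB p) ∂(tsΛ ν) := by
    rw [← integral_map mB'.aemeasurable h.measu.aestronglyMeasurable, hrot,
      integral_map h.measB.aemeasurable h.measu.aestronglyMeasurable]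
  -- the integral of the potential
  have eμ : ∫ x, u x ∂(tsμ ν ΦA ΦB)
      = ∫ p, u (ΦA p) ∂(tsΛ ν) + 2 * ∫ p, u (ΦB p) ∂(tsΛ ν) := by
    have j1 : Integrable u ((tsΛ ν).map ΦA) :=
      (integrable_map_measure h.measu.aestronglyMeasurable h.measA.aemeasurable).mpr iA
    have j2 : Integrable u ((tsΛ ν).map ΦB) :=
      (integrable_map_measure h.measu.aestronglyMeasurable h.measB.aemeasurable).mpr iB
    unfold tsμ
    rw [integral_add_measure j1 (j2.smul_measure (by simp)), integral_smul_measure,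
      integral_map h.measA.aemeasurable h.measu.aestronglyMeasurable,
      integral_map h.measB.aemeasurable h.measu.aestronglyMeasurable]
    simp
  -- the cost on the three pieces
  have c1 : ∀ p, c (tsΓ₁ ΦA ΦB g p)
      = ENNReal.ofReal (u (ΦA p) + u (ΦB p) + u (tsΦB' ΦB g p)) := fun p => h.contact p.1 p.2
  have c2 : ∀ p, c (tsΓ₂ ΦA ΦB g p) = c (tsΓ₁ ΦA ΦB g p) := fun p => by
    unfold tsΓ₂ tsΓ₁
    rw [h.symm23, h.symm12]
  have c3 : ∀ p, c (tsΓ₃ ΦA ΦB g p) = c (tsΓ₁ ΦA ΦB g p) := fun p => by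
    unfold tsΓ₃ tsΓ₁
    rw [h.symm12, h.symm23]
  have iκ : Integrable (fun p => u (ΦA p) + u (ΦB p) + u (tsΦB' ΦB g p)) (tsΛ ν) :=
    (iA.add iB).add iB'
  have eκ : ∫ p, (u (ΦA p) + u (ΦB p) + u (tsΦB' ΦB g p)) ∂(tsΛ ν)
      = ∫ x, u x ∂(tsμ ν ΦA ΦB) := by
    have e1 : ∫ p, (u (ΦA p) + u (ΦB p) + u (tsΦB' ΦB g p)) ∂(tsΛ ν)
        = ∫ p, (u (ΦA p) + u (ΦB p)) ∂(tsΛ ν) + ∫ p, u (tsΦB' ΦB g p) ∂(tsΛ ν) :=
      integral_add (iA.add iB) iB'
    have e2 : ∫ p, (u (ΦA p) + u (ΦB p)) ∂(tsΛ ν)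
        = ∫ p, u (ΦA p) ∂(tsΛ ν) + ∫ p, u (ΦB p) ∂(tsΛ ν) := integral_add iA iB
    rw [e1, e2, eB', eμ]
    ring
  have hκ : ∫⁻ p, ENNReal.ofReal (u (ΦA p) + u (ΦB p) + u (tsΦB' ΦB g p)) ∂(tsΛ ν)
      = ENNReal.ofReal (∫ x, u x ∂(tsμ ν ΦA ΦB)) := by
    rw [← ofReal_integral_eq_lintegral_ofReal iκ
      (Filter.Eventually.of_forall fun p => h.contact_nonneg p.1 p.2), eκ]
  unfold tsπ₀
  rw [lintegral_add_measure, lintegral_add_measure,
    lintegral_map h.measc (measurable_tsΓ₁ ΦA ΦB g h.measA h.measB h.measg),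
    lintegral_map h.measc (measurable_tsΓ₂ ΦA ΦB g h.measA h.measB h.measg),
    lintegral_map h.measc (measurable_tsΓ₃ ΦA ΦB g h.measA h.measB h.measg)]
  simp only [c2, c3, c1]
  rw [hκ]
  unfold tsVal
  rw [ENNReal.ofReal_mul (by norm_num : (0:ℝ) ≤ 3), ENNReal.ofReal_ofNat]
  ring

/-- (TS-2) the symmetrised triangle plan is a coupling with cost exactly `tsVal`. -/
theorem ts_plan (h : TwoShellHyp ν ΦA ΦB g c u) :
    ∃ π₀ : Measure (E × E × E), IsCoupling₃ (tsμ ν ΦA ΦB) π₀ ∧ ∫⁻ p, c p ∂π₀ = tsVal ν ΦA ΦB u :=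
  ⟨tsπ₀ ν ΦA ΦB g, tsπ₀_isCoupling ν ΦA ΦB g c u h, tsπ₀_cost ν ΦA ΦB g c u h⟩

end Crest.Agent.Helper31
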